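import Mathlib
import Vale.Agent.Lib.P252.H28.Defs
import Vale.Agent.Lib.P252.H28.Main

namespace Vale.Agent.Results.P252.H28_SeparableAnyExponent

open Matrix Finset Vale.Agent.Lib.P252.H28

/-- Bernstein theorem for entire separable graphs, for the whole family of affine-maximal-type
equations and in every dimension `n`. Let `a ≠ 0` be any real exponent, and let
`u(x) = ∑ i, f i (x i)` be of class `C^4` on all of `ℝ^n`, with positive definite Hessian at
every point, solving `∑_{i,j} U^{ij} ∂_{ij} w = 0` on `ℝ^n`, where `U = det(D²u) (D²u)⁻¹` and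
`w = (det D²u)^a`. Then `u` is a quadratic polynomial `u(x) = 1/2 x^T A x + b·x + c` with `A`
positive definite. The affine maximal equation is the case `a = -(n+1)/(n+2)`. -/
theorem result (n : ℕ) (a : ℝ) (ha : a ≠ 0) (u : (Fin n → ℝ) → ℝ) (f : Fin n → ℝ → ℝ)
    (hsep : ∀ x, u x = ∑ i, f i (x i))
    (hsmooth : ContDiff ℝ 4 u)
    (hpd : ∀ x, (H28_hess u x).PosDef)
    (hAM : ∀ x, H28_AMexp a u x = 0) :
    ∃ (A : Matrix (Fin n) (Fin n) ℝ) (b : Fin n → ℝ) (c : ℝ), A.PosDef ∧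
      ∀ x, u x = 1 / 2 * (x ⬝ᵥ A *ᵥ x) + b ⬝ᵥ x + c := by
  have hu : u = fun y => ∑ i, f i (y i) := funext hsep
  subst hu
  exact H28_quadratic_assemble n f
    (H28_separable_exp n a ha f (H28_summand_contDiff n f hsmooth) hpd hAM)

/-- Sanity check, not the hand-in: the hypotheses of `result` are satisfiable for every
exponent. They hold for the standard paraboloid `u(x) = ∑ x_i² / 2`, with `f i t = t² / 2`. -/
theorem paraboloid_satisfies_hypotheses (n : ℕ) (a : ℝ) :
    (∀ x : Fin n → ℝ,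
      (∑ i, x i ^ 2 / 2) = ∑ i, (fun (_ : Fin n) (t : ℝ) => t ^ 2 / 2) i (x i)) ∧
    ContDiff ℝ 4 (fun y : Fin n → ℝ => ∑ i, y i ^ 2 / 2) ∧
    (∀ x, (H28_hess (fun y : Fin n → ℝ => ∑ i, y i ^ 2 / 2) x).PosDef) ∧
    (∀ x, H28_AMexp a (fun y : Fin n → ℝ => ∑ i, y i ^ 2 / 2) x = 0) :=
  ⟨fun _ => rfl, H28_contDiff_paraboloid n,
    fun x => by rw [H28_hess_paraboloid]; exact PosDef.one,
    fun x => H28_AMexp_paraboloid n a x⟩

end Vale.Agent.Results.P252.H28_SeparableAnyExponent
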